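import Vale.Agent.Lib.P140S.Energy

open MeasureTheory Real Vale.Agent.Lib.P140S

namespace Vale.Agent.Results.P140.A0_maxwellian

/-- Entropy stability of every global Maxwellian `m` (density `ρ`, temperature `T`, velocity `u`).
`Slice F₀ g` lists what the definition of a renormalized entropy solution with datum `F₀`
gives at each time: `g` in the class, mass and momentum conserved, energy and `H_M` not above
their initial values. Assume `T ≤ 1`, or that `g` keeps the energy of the datum (`EnOK`). Then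
(1) `H_m(g) ≤ H_m(F₀)` and `‖g - m‖₁² ≤ 2 (∫ F₀ + ∫ m) H_m(F₀)`;
(2) `m` itself qualifies, and if `F₀ = m` then `g = m` almost everywhere (uniqueness);
(3) two such states with the same datum have `‖g₁ - g₂‖₁ ≤ 2 √(2 (∫ F₀ + ∫ m) H_m(F₀))`. -/
theorem result (ρ T : ℝ) (hρ : 0 < ρ) (hT : 0 < T) (u : Vel) :
    (∀ F₀ g : Om → ℝ, Adm F₀ → Slice F₀ g → EnOK T F₀ g →
      relEnt (maxwz ρ T u) g ≤ relEnt (maxwz ρ T u) F₀ ∧
      l1dist g (maxwz ρ T u) ^ 2 ≤ budget ρ T u F₀) ∧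
    (Slice (maxwz ρ T u) (maxwz ρ T u) ∧
      ∀ g : Om → ℝ, Slice (maxwz ρ T u) g → EnOK T (maxwz ρ T u) g →
        g =ᵐ[volume] maxwz ρ T u) ∧
    (∀ F₀ g₁ g₂ : Om → ℝ, Adm F₀ → Slice F₀ g₁ → Slice F₀ g₂ → EnOK T F₀ g₁ → EnOK T F₀ g₂ →
      l1dist g₁ g₂ ≤ 2 * sqrt (budget ρ T u F₀)) :=
  ⟨fun _ _ h₀ hs hE => stabE h₀ hs hρ hT hE u,
    ⟨slice_self hρ hT u, fun _ hs hE => uniqE hρ hT u hs hE⟩,
    fun _ _ _ h₀ h₁ h₂ hE₁ hE₂ => two_solE h₀ h₁ h₂ hρ hT hE₁ hE₂ u⟩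

end Vale.Agent.Results.P140.A0_maxwellian
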