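import Vale.Agent.Lib.P140.Exist2

open MeasureTheory Vale.Agent.Lib.P140

namespace Vale.Agent.Results.P140.A_maxwellian

/-- Uniqueness of renormalized entropy solutions at global Maxwellian data of temperature at most
one (and at all temperatures without energy loss), and the relative entropy bounds for all data. -/
theorem result :
    (∀ (ρ T : ℝ) (u : R3), 0 < ρ → 0 < T →
      IsSolution (fun _ v => maxw ρ u T v) (fun _ _ v => maxw ρ u T v) ∧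
      (T ≤ 1 → ∀ F : ℝ → R3 → R3 → ℝ, IsSolution (fun _ v => maxw ρ u T v) F →
        ∀ t, 0 ≤ t → ∀ᵐ p ∂muO, F t p.1 p.2 = maxw ρ u T p.2) ∧
      (∀ F : ℝ → R3 → R3 → ℝ, IsSolution (fun _ v => maxw ρ u T v) F → ∀ t, 0 ≤ t →
        ∫ p, ‖p.2‖ ^ 2 * F t p.1 p.2 ∂muO = ∫ p, ‖p.2‖ ^ 2 * maxw ρ u T p.2 ∂muO →
        ∀ᵐ p ∂muO, F t p.1 p.2 = maxw ρ u T p.2)) ∧
    (∀ (F0 : R3 → R3 → ℝ) (F : ℝ → R3 → R3 → ℝ), IsSolution F0 F →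
      ∀ (ρ T : ℝ) (u : R3), 0 < ρ → 0 < T → ∀ t, 0 ≤ t →
        ∫ p, hh (F t p.1 p.2) (maxw ρ u T p.2) ∂muO ≤
          ∫ p, hh (F0 p.1 p.2) (maxw ρ u T p.2) ∂muO +
          ((T - 1) / (2 * T)) *
            (∫ p, ‖p.2‖ ^ 2 * F0 p.1 p.2 ∂muO - ∫ p, ‖p.2‖ ^ 2 * F t p.1 p.2 ∂muO)) ∧
    (∀ (F0 : R3 → R3 → ℝ) (F₁ F₂ : ℝ → R3 → R3 → ℝ), IsSolution F0 F₁ → IsSolution F0 F₂ →
      ∀ (ρ T : ℝ) (u : R3), 0 < ρ → 0 < T → T ≤ 1 → ∀ t, 0 ≤ t →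
        (∫ p, |F₁ t p.1 p.2 - F₂ t p.1 p.2| ∂muO) ^ 2 ≤
          8 * (∫ p, hh (F0 p.1 p.2) (maxw ρ u T p.2) ∂muO) *
            (∫ p, F0 p.1 p.2 ∂muO + ∫ p, maxw ρ u T p.2 ∂muO)) := by
  refine ⟨?_, ?_, ?_⟩
  · intro ρ T u hρ hT
    refine ⟨isSolution_maxw hρ hT, ?_, ?_⟩
    · intro hT1 F hF t ht
      exact eq_of_temp_le_one hρ hT hT1 hF ht
    · intro F hF t ht hE
      exact eq_of_energy hρ hT hF ht hE
  · intro F0 F hF ρ T u hρ hT t ht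
    exact relEnt_general hF hρ hT ht
  · intro F0 F₁ F₂ h₁ h₂ ρ T u hρ hT hT1 t ht
    exact two_solutions h₁ h₂ hρ hT hT1 ht

end Vale.Agent.Results.P140.A_maxwellian
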