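import Vale.Agent.Lib.P140S.Main

open MeasureTheory Real Vale.Agent.Lib.P140S

namespace Vale.Agent.Results.P140.B_slice

/-- Entropy stability of global Maxwellians of temperature at most 1.
`Slice F₀ g` lists what the definition of a renormalized entropy solution with datum `F₀`
gives at each time: `g` in the class, mass and momentum conserved, energy and `H_M` not above
their initial values. For every global Maxwellian `m` with `T ≤ 1`: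
(1) `H_m(g) ≤ H_m(F₀)` and `‖g - m‖₁² ≤ 2 (∫ F₀ + ∫ m) H_m(F₀)`;
(2) `m` itself qualifies, and if `F₀ = m` then `g = m` almost everywhere (uniqueness);
(3) two states with the same datum have `‖g₁ - g₂‖₁ ≤ 2 √(2 (∫ F₀ + ∫ m) H_m(F₀))`. -/
theorem result (ρ T : ℝ) (hρ : 0 < ρ) (hT : 0 < T) (hT1 : T ≤ 1) (u : Vel) :
    (∀ F₀ g : Om → ℝ, Adm F₀ → Slice F₀ g →
      relEnt (maxwz ρ T u) g ≤ relEnt (maxwz ρ T u) F₀ ∧
      (∫ z, |g z - maxwz ρ T u z|) ^ 2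
        ≤ 2 * ((∫ z, F₀ z) + ∫ z, maxwz ρ T u z) * relEnt (maxwz ρ T u) F₀) ∧
    (Slice (maxwz ρ T u) (maxwz ρ T u) ∧
      ∀ g : Om → ℝ, Slice (maxwz ρ T u) g → g =ᵐ[volume] maxwz ρ T u) ∧
    (∀ F₀ g₁ g₂ : Om → ℝ, Adm F₀ → Slice F₀ g₁ → Slice F₀ g₂ →
      ∫ z, |g₁ z - g₂ z| ≤
        2 * sqrt (2 * ((∫ z, F₀ z) + ∫ z, maxwz ρ T u z) * relEnt (maxwz ρ T u) F₀)) :=
  ⟨fun _ _ h₀ hs => stab h₀ hs hρ hT hT1 u,
    ⟨slice_self hρ hT u, fun _ hs => uniq hρ hT hT1 u hs⟩,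
    fun _ _ _ h₀ h₁ h₂ => two_sol h₀ h₁ h₂ hρ hT hT1 u⟩

end Vale.Agent.Results.P140.B_slice
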